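import Vale.Agent.P062.B18.Main

namespace Vale.Agent.Results.P062.MakerWins18

open Vale.Agent.P062

theorem result : MakerWinsWithin Set.univ 18 ∧
    MakerWinsWithin {p : ℤ × ℤ | 0 ≤ p.1 ∧ p.1 < 17 ∧ 0 ≤ p.2 ∧ p.2 < 17} 18 :=
  B18.wins

end Vale.Agent.Results.P062.MakerWins18
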