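import Vale.Agent.P062.A36.Main

namespace Vale.Agent.Results.P062.MakerWins36

open Vale.Agent.P062

theorem result : MakerWinsWithin Set.univ 36 ∧
    MakerWinsWithin {p : ℤ × ℤ | 0 ≤ p.1 ∧ p.1 < 25 ∧ 0 ≤ p.2 ∧ p.2 < 25} 36 :=
  A36.wins

end Vale.Agent.Results.P062.MakerWins36
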